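import Vale.Agent.Lib.P038.Sat.I.M2_1.H
noncomputable section
namespace Vale.Agent.Lib.P038.Sat.I.M2_1.S0
open Vale.Agent.Lib.P038.Sat Vale.Agent.Lib.P038.Sat.I.M2_1
def b0 : List Nat := [nat_lit 422212465066041,nat_lit 1055539752599560,nat_lit 9448769176185921489569,nat_lit 914819444113448,nat_lit 23618174186345872247632,nat_lit 1125942856515608,nat_lit 14171711979104304516017,nat_lit 2306476388447308737,nat_lit 70437463654473]
def p0 : List Nat := [nat_lit 73791479894465593344,nat_lit 147587463388558614531,nat_lit 221383448531919011845,nat_lit 31527946170736647,nat_lit 4398516273159]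
def o0 : List Nat := [nat_lit 7]
theorem ok : segCheck (Gen.gen sh_6_1_t (flM 2)) W M GT 4 0 1 H [b0] [] [p0] [o0] = true := by decide +kernel
theorem seg {τ : Nat → Bool} (hgen : ∀ t c, Gen.gen sh_6_1_t (flM 2) t = some c → holdsG τ c)
  (hin : ∀ g, g < 0 → HL W (loc GT τ) (getB H g)) :
  ∀ g, 0 ≤ g → g < 1 → HL W (loc GT τ) (getB H g) :=
  segCheck_sound ok hgen hin
end Vale.Agent.Lib.P038.Sat.I.M2_1.S0
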